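import Vale.Agent.P025.R2.H16.ResW
import Vale.Agent.P025.R2.H587.HTDefs

/-!
# P025 G-OMBC, part 2: a norm for which a derivation is bounded (helper941)
-/

universe u v

namespace P025H941

open P025H373 P025H16 P025H587 IntermediateField TensorProduct

section

variable {C : Type u} [NontriviallyNormedField C] [IsUltrametricDist C] [CompleteSpace C]
  [IsAlgClosed C] [CharZero C]

omit [CompleteSpace C] [IsAlgClosed C] [CharZero C] in
/-- a finite extension of the Gauss field over `K`. -/
theorem exists_local_ext (K : Type v) [Field K] [Algebra (RatFunc C) K]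
    [FiniteDimensional (RatFunc C) K] :
    ∃ (E : Type (max u v)) (_ : Field E) (_ : Algebra (F0 C) E) (_ : Algebra K E),
      FiniteDimensional (F0 C) E ∧ ∀ a : RatFunc C, algebraMap K E (algebraMap (RatFunc C) K a) =
        algebraMap (F0 C) E (algebraMap (RatFunc C) (F0 C) a) := by
  have hnt : Nontrivial (F0 C ⊗[RatFunc C] K) := inferInstance
  obtain ⟨M, hM⟩ := Ideal.exists_maximal (F0 C ⊗[RatFunc C] K)
  let _ : Field ((F0 C ⊗[RatFunc C] K) ⧸ M) := Ideal.Quotient.field M
  let f : K →+* (F0 C ⊗[RatFunc C] K) ⧸ M := (Ideal.Quotient.mk M).comp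
    (Algebra.TensorProduct.includeRight : K →ₐ[RatFunc C] F0 C ⊗[RatFunc C] K).toRingHom
  refine ⟨(F0 C ⊗[RatFunc C] K) ⧸ M, inferInstance, inferInstance, f.toAlgebra, ?_, ?_⟩
  · exact Module.Finite.of_surjective (Ideal.Quotient.mkₐ (F0 C) M).toLinearMap
      Ideal.Quotient.mk_surjective
  · intro a
    have h1 : (Algebra.TensorProduct.includeRight : K →ₐ[RatFunc C] F0 C ⊗[RatFunc C] K)
        (algebraMap (RatFunc C) K a) =
        algebraMap (F0 C) (F0 C ⊗[RatFunc C] K) (algebraMap (RatFunc C) (F0 C) a) := by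
      rw [AlgHom.commutes]
      exact IsScalarTower.algebraMap_apply _ (F0 C) _ a
    change Ideal.Quotient.mk M ((Algebra.TensorProduct.includeRight :
      K →ₐ[RatFunc C] F0 C ⊗[RatFunc C] K) (algebraMap (RatFunc C) K a)) = _
    rw [h1]
    rfl

open Differential in
/-- the extension of `d/dt` to a finite extension of the Gauss field is bounded. -/
theorem exists_der (E : Type v) [Field E] [Algebra (F0 C) E] [FiniteDimensional (F0 C) E] :
    ∃ dE : Derivation ℤ E E,
      (∀ a : F0 C, dE (algebraMap (F0 C) E a) = algebraMap (F0 C) E (der C a)) ∧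
      ∃ A : ℝ, 0 ≤ A ∧ ∀ x : E, snAbs C E (dE x) ≤ A * snAbs C E x := by
  have := charZero_F0 (C := C)
  let dF : Differential (F0 C) := ⟨(der C).restrictScalars ℤ⟩
  let dE : Differential E := Differential.differentialFiniteDimensional (F0 C) E
  have hDA : DifferentialAlgebra (F0 C) E := Differential.differentialAlgebraFiniteDimensional
  have hE : ∀ a : F0 C, dE.deriv (algebraMap (F0 C) E a) = algebraMap (F0 C) E (der C a) :=
    fun a => hDA.deriv_algebraMap a
  refine ⟨dE.deriv, hE, ?_⟩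
  let _ := nnF0 C
  let b := Module.finBasis (F0 C) E
  have hb : ∀ i, ∃ B : ℝ, 0 < B ∧ ∀ x, ‖b.coord i x‖ ≤ B * spectralNorm (F0 C) E x := fun i =>
    exists_bound (K := F0 C) (L := E) (b.coord i)
  choose B hB0 hB using hb
  let A : ℝ := ∑ i, B i * (snAbs C E (b i) + snAbs C E (dE.deriv (b i)))
  have hA0 : ∀ i, 0 ≤ B i * (snAbs C E (b i) + snAbs C E (dE.deriv (b i))) := fun i =>
    mul_nonneg (hB0 i).le (add_nonneg ((snAbs C E).nonneg _) ((snAbs C E).nonneg _))
  refine ⟨A, Finset.sum_nonneg fun i _ => hA0 i, fun x => ?_⟩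
  have h1 : x = ∑ i, algebraMap (F0 C) E (b.coord i x) * b i := by
    conv_lhs => rw [← b.sum_repr x]
    refine Finset.sum_congr rfl fun i _ => ?_
    rw [Algebra.smul_def]
    rfl
  have h2 : dE.deriv x = ∑ i, (algebraMap (F0 C) E (b.coord i x) * dE.deriv (b i) +
      algebraMap (F0 C) E (der C (b.coord i x)) * b i) := by
    conv_lhs => rw [h1]
    rw [map_sum]
    refine Finset.sum_congr rfl fun i _ => ?_
    rw [Derivation.leibniz, hE, smul_eq_mul, smul_eq_mul, mul_comm (b i)]
  have hx0 : 0 ≤ snAbs C E x := (snAbs C E).nonneg x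
  have hsum : snAbs C E (dE.deriv x) ≤ ∑ i, (‖b.coord i x‖ *
      (snAbs C E (b i) + snAbs C E (dE.deriv (b i)))) := by
    rw [h2]
    refine ((snAbs C E).sum_le _ _).trans (Finset.sum_le_sum fun i _ => ?_)
    refine ((snAbs C E).add_le _ _).trans ?_
    rw [map_mul, map_mul, snAbs_algebraMap, snAbs_algebraMap]
    have h3 := norm_der_le (C := C) (b.coord i x)
    have h4 : ‖der C (b.coord i x)‖ * snAbs C E (b i) ≤ ‖b.coord i x‖ * snAbs C E (b i) :=
      mul_le_mul_of_nonneg_right h3 ((snAbs C E).nonneg _)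
    rw [mul_add]
    linarith
  refine hsum.trans ?_
  rw [Finset.sum_mul]
  refine Finset.sum_le_sum fun i _ => ?_
  have h5 : ‖b.coord i x‖ ≤ B i * snAbs C E x := hB i x
  have h6 : 0 ≤ snAbs C E (b i) + snAbs C E (dE.deriv (b i)) :=
    add_nonneg ((snAbs C E).nonneg _) ((snAbs C E).nonneg _)
  calc ‖b.coord i x‖ * (snAbs C E (b i) + snAbs C E (dE.deriv (b i)))
      ≤ (B i * snAbs C E x) * (snAbs C E (b i) + snAbs C E (dE.deriv (b i))) :=
        mul_le_mul_of_nonneg_right h5 h6
    _ = _ := by ring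

/-- **there is a norm of `K` for which a given derivation is bounded.** -/
theorem exists_bdd_of_rat {K : Type v} [Field K] [Algebra C K] [Algebra (RatFunc C) K]
    [IsScalarTower C (RatFunc C) K] [FiniteDimensional (RatFunc C) K] (D : Derivation C K K) :
    ∃ w : AbsoluteValue K ℝ, IsNm C w ∧ ∃ A : ℝ, 0 ≤ A ∧ ∀ g : K, w (D g) ≤ A * w g := by
  obtain ⟨E, iE, a1, a2, hfin, hc⟩ := exists_local_ext (C := C) K
  obtain ⟨dE, hdE, A, hA0, hA⟩ := exists_der (C := C) E
  refine ⟨(snAbs C E).comp (algebraMap K E).injective, ⟨?_, ?_⟩,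
    snAbs C E (algebraMap K E (D (algebraMap (RatFunc C) K RatFunc.X))) * A,
    mul_nonneg ((snAbs C E).nonneg _) hA0, ?_⟩
  · intro x y
    change snAbs C E (algebraMap K E (x + y)) ≤ _
    rw [map_add]
    exact snAbs_na E _ _
  · intro c
    change snAbs C E (algebraMap K E (algebraMap C K c)) = _
    rw [IsScalarTower.algebraMap_apply C (RatFunc C) K, hc, snAbs_algebraMap,
      ← IsScalarTower.algebraMap_apply C (RatFunc C) (F0 C), norm_algebraMap_C]
  · intro g
    change snAbs C E (algebraMap K E (D g)) ≤ _ * snAbs C E (algebraMap K E g)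
    rw [der_eq hc D dE hdE g, map_mul, mul_assoc]
    exact mul_le_mul_of_nonneg_left (hA _) ((snAbs C E).nonneg _)

/-- **there is a norm of a function field for which a given derivation is bounded.** -/
theorem exists_bdd {K : Type v} [Field K] [Algebra C K] (hK : IsFF C K) (D : Derivation C K K) :
    ∃ w : AbsoluteValue K ℝ, IsNm C w ∧ ∃ A : ℝ, 0 ≤ A ∧ ∀ g : K, w (D g) ≤ A * w g := by
  obtain ⟨x, hx, hfd⟩ := hK
  let e := RatFunc.algEquivOfTranscendental x hx
  let _ : Algebra (RatFunc C) C⟮x⟯ := e.toRingEquiv.toRingHom.toAlgebra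
  let _ : Algebra (RatFunc C) K :=
    ((algebraMap C⟮x⟯ K).comp e.toRingEquiv.toRingHom).toAlgebra
  have t1 : IsScalarTower (RatFunc C) C⟮x⟯ K := IsScalarTower.of_algebraMap_eq fun _ => rfl
  have t2 : IsScalarTower C (RatFunc C) K := IsScalarTower.of_algebraMap_eq fun c => by
    change _ = algebraMap C⟮x⟯ K (e (algebraMap C (RatFunc C) c))
    rw [e.commutes]
    rfl
  have f1 : Module.Finite (RatFunc C) C⟮x⟯ :=
    Module.Finite.of_surjective (Algebra.linearMap (RatFunc C) C⟮x⟯) e.surjective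
  have f2 : FiniteDimensional (RatFunc C) K := Module.Finite.trans C⟮x⟯ K
  exact exists_bdd_of_rat D

end

end P025H941
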